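import Mathlib

/-!
# S0453, step (3.4) of `notes/s0453/PROOF.md`: the law of the levels (helper82)

Service leaf for WP-D1 (colouring model).  Mathlib only.

* `card_fibres_mul` : the number of maps `K → ι` with prescribed fibre sizes `l` times `∏ (l i)!`
  is `(card K)!`  (multinomial count, division free).
* `pw δ i l = 1 / (l! (l - δ i)!)` (zero when `l < δ i`) and its properties in the shape of the
  hypotheses of the one–dimensional lemma (nonnegative, log-concave, interval support).
* `sum_states_levels` : for the colouring model `K1, K2, δ`, a sum over the states of a function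
  of the level vector equals `(card K1)! (card K2)!` times the sum over
  `Finset.Nat.antidiagonalTuple 3 (card K1)` weighted by `∏ i, pw δ i (l i)`.
-/

set_option autoImplicit false

namespace Crest.Agent.Helper82.S0453

open Finset Nat

section Count

variable {ι : Type*} [Fintype ι] [DecidableEq ι]

/-- The fibres of a map partition its domain. -/
theorem sum_card_fibres {K : Type*} [Fintype K] (s : K → ι) :
    ∑ i, (univ.filter (fun x => s x = i)).card = Fintype.card K := by
  classical
  rw [← Finset.card_univ (α := K)]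
  exact (Finset.card_eq_sum_card_fiberwise (f := s) (s := univ) (t := univ)
    (fun x _ => mem_univ _)).symm

omit [Fintype ι] in
theorem card_fibres_cons {k : ℕ} (i0 : ι) (s : Fin k → ι) (i : ι) :
    (univ.filter (fun x : Fin (k + 1) => (Fin.cons i0 s : Fin (k + 1) → ι) x = i)).card
      = (if i0 = i then 1 else 0) + (univ.filter (fun x : Fin k => s x = i)).card := by
  rw [Finset.card_filter, Finset.card_filter, Fin.sum_univ_succ]
  simp only [Fin.cons_zero, Fin.cons_succ]

/-- Multinomial count on `Fin k`, division free. -/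
theorem card_fibres_fin (k : ℕ) : ∀ (l : ι → ℕ), ∑ i, l i = k →
    (univ.filter (fun s : Fin k → ι =>
        ∀ i, (univ.filter (fun x => s x = i)).card = l i)).card * ∏ i, (l i)! = k ! := by
  induction k with
  | zero =>
    intro l hl
    have hl0 : ∀ i, l i = 0 := fun i => (Finset.sum_eq_zero_iff.mp hl) i (mem_univ i)
    have h1 : (univ.filter (fun s : Fin 0 → ι =>
        ∀ i, (univ.filter (fun x => s x = i)).card = l i)) = univ := by
      apply Finset.filter_true_of_mem
      intro s _ i
      rw [hl0 i]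
      simp
    rw [h1]
    simp [hl0]
  | succ k ih =>
    intro l hl
    -- split along the value at `0`
    have hsplit : (univ.filter (fun s : Fin (k + 1) → ι =>
        ∀ i, (univ.filter (fun x => s x = i)).card = l i)).card
        = ∑ i0 : ι, (univ.filter (fun s : Fin k → ι =>
            ∀ i, (if i0 = i then 1 else 0) + (univ.filter (fun x => s x = i)).card = l i)).card := by
      rw [Finset.card_filter]
      rw [← (Fin.consEquiv (fun _ : Fin (k + 1) => ι)).sum_comp]
      rw [Fintype.sum_prod_type]
      refine Finset.sum_congr rfl (fun i0 _ => ?_)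
      rw [Finset.card_filter]
      refine Finset.sum_congr rfl (fun s _ => ?_)
      have : (Fin.consEquiv (fun _ : Fin (k + 1) => ι)) (i0, s) = (Fin.cons i0 s : Fin (k + 1) → ι) :=
        rfl
      rw [this]
      simp only [card_fibres_cons]
    rw [hsplit, Finset.sum_mul]
    have hterm : ∀ i0 : ι, (univ.filter (fun s : Fin k → ι =>
            ∀ i, (if i0 = i then 1 else 0) + (univ.filter (fun x => s x = i)).card = l i)).card
          * ∏ i, (l i)! = l i0 * k ! := by
      intro i0
      rcases Nat.eq_zero_or_pos (l i0) with h0 | hpos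
      · have hempty : (univ.filter (fun s : Fin k → ι =>
            ∀ i, (if i0 = i then 1 else 0) + (univ.filter (fun x => s x = i)).card = l i)) = ∅ := by
          apply Finset.filter_false_of_mem
          intro s _ h
          have := h i0
          rw [if_pos rfl, h0] at this
          omega
        rw [hempty, h0]
        simp
      · obtain ⟨m, hm⟩ : ∃ m, l i0 = m + 1 := ⟨l i0 - 1, by omega⟩
        set l' : ι → ℕ := Function.update l i0 m with hl'
        have hl'0 : l' i0 = m := by simp [hl']
        have hl'ne : ∀ i, i ≠ i0 → l' i = l i := fun i hi => by simp [hl', hi]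
        have hsum' : ∑ i, l' i = k := by
          have e1 : ∑ i, l i = l i0 + ∑ i ∈ univ.erase i0, l i :=
            (Finset.add_sum_erase univ l (mem_univ i0)).symm
          have e2 : ∑ i, l' i = l' i0 + ∑ i ∈ univ.erase i0, l' i :=
            (Finset.add_sum_erase univ l' (mem_univ i0)).symm
          have e3 : ∑ i ∈ univ.erase i0, l' i = ∑ i ∈ univ.erase i0, l i :=
            Finset.sum_congr rfl (fun i hi => hl'ne i (Finset.ne_of_mem_erase hi))
          rw [e2, e3, hl'0]
          omega
        have hfilt : (univ.filter (fun s : Fin k → ι =>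
            ∀ i, (if i0 = i then 1 else 0) + (univ.filter (fun x => s x = i)).card = l i))
            = (univ.filter (fun s : Fin k → ι =>
              ∀ i, (univ.filter (fun x => s x = i)).card = l' i)) := by
          apply Finset.filter_congr
          intro s _
          constructor
          · intro h i
            by_cases hi : i = i0
            · subst hi
              have := h i
              rw [if_pos rfl, hm] at this
              rw [hl'0]; omega
            · have := h i
              rw [if_neg (fun h' => hi h'.symm)] at this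
              rw [hl'ne i hi]; omega
          · intro h i
            by_cases hi : i = i0
            · subst hi
              rw [if_pos rfl, hm, h i, hl'0]; omega
            · rw [if_neg (fun h' => hi h'.symm), h i, hl'ne i hi]; omega
        have hprod : ∏ i, (l i)! = (m + 1) * ∏ i, (l' i)! := by
          have e1 : ∏ i, (l i)! = (l i0)! * ∏ i ∈ univ.erase i0, (l i)! :=
            (Finset.mul_prod_erase univ (fun i => (l i)!) (mem_univ i0)).symm
          have e2 : ∏ i, (l' i)! = (l' i0)! * ∏ i ∈ univ.erase i0, (l' i)! :=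
            (Finset.mul_prod_erase univ (fun i => (l' i)!) (mem_univ i0)).symm
          have e3 : ∏ i ∈ univ.erase i0, (l' i)! = ∏ i ∈ univ.erase i0, (l i)! :=
            Finset.prod_congr rfl (fun i hi => by rw [hl'ne i (Finset.ne_of_mem_erase hi)])
          rw [e1, e2, e3, hl'0, hm, Nat.factorial_succ]
          ring
        rw [hfilt, hprod, hm]
        have := ih l' hsum'
        calc (univ.filter (fun s : Fin k → ι =>
              ∀ i, (univ.filter (fun x => s x = i)).card = l' i)).card * ((m + 1) * ∏ i, (l' i)!)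
            = (m + 1) * ((univ.filter (fun s : Fin k → ι =>
              ∀ i, (univ.filter (fun x => s x = i)).card = l' i)).card * ∏ i, (l' i)!) := by ring
          _ = (m + 1) * k ! := by rw [this]
    rw [Finset.sum_congr rfl (fun i0 _ => hterm i0), ← Finset.sum_mul, hl, Nat.factorial_succ]

/-- Transport of the fibre count along an equivalence of the domain. -/
theorem card_fibres_congr {K K' : Type*} [Fintype K] [DecidableEq K] [Fintype K'] [DecidableEq K']
    (e : K ≃ K') (l : ι → ℕ) :
    (univ.filter (fun s : K → ι => ∀ i, (univ.filter (fun x => s x = i)).card = l i)).card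
      = (univ.filter (fun s : K' → ι => ∀ i, (univ.filter (fun x => s x = i)).card = l i)).card := by
  refine Finset.card_equiv (Equiv.arrowCongr e (Equiv.refl ι)) (fun s => ?_)
  have hcard : ∀ i, (univ.filter (fun y : K' => (Equiv.arrowCongr e (Equiv.refl ι)) s y = i)).card
      = (univ.filter (fun x : K => s x = i)).card := by
    intro i
    refine Finset.card_equiv e.symm (fun y => ?_)
    simp [Equiv.arrowCongr]
  simp only [mem_filter, mem_univ, true_and, hcard]

/-- **Multinomial count**, division free: the number of maps `K → ι` whose fibre over `i` has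
exactly `l i` elements, times `∏ i, (l i)!`, is `(card K)!` (when `∑ l = card K`). -/
theorem card_fibres_mul {K : Type*} [Fintype K] [DecidableEq K] (l : ι → ℕ)
    (h : ∑ i, l i = Fintype.card K) :
    (univ.filter (fun s : K → ι =>
        ∀ i, (univ.filter (fun x => s x = i)).card = l i)).card * ∏ i, (l i)!
      = (Fintype.card K)! := by
  rw [card_fibres_congr (Fintype.equivFin K) l]
  exact card_fibres_fin (Fintype.card K) l h

/-- If the sizes do not add up to `card K` there is no such map. -/
theorem card_fibres_eq_zero {K : Type*} [Fintype K] [DecidableEq K] (l : ι → ℕ)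
    (h : ∑ i, l i ≠ Fintype.card K) :
    (univ.filter (fun s : K → ι =>
        ∀ i, (univ.filter (fun x => s x = i)).card = l i)).card = 0 := by
  rw [Finset.card_eq_zero]
  apply Finset.filter_false_of_mem
  intro s _ hs
  apply h
  rw [← sum_card_fibres s]
  exact Finset.sum_congr rfl (fun i _ => (hs i).symm)

/-- Real form of the multinomial count. -/
theorem card_fibres_real {K : Type*} [Fintype K] [DecidableEq K] (l : ι → ℕ)
    (h : ∑ i, l i = Fintype.card K) :
    ((univ.filter (fun s : K → ι =>
        ∀ i, (univ.filter (fun x => s x = i)).card = l i)).card : ℝ)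
      = ((Fintype.card K)! : ℝ) / ∏ i, ((l i)! : ℝ) := by
  have h1 := card_fibres_mul (K := K) l h
  have hpos : (0 : ℝ) < ∏ i, ((l i)! : ℝ) :=
    Finset.prod_pos (fun i _ => by exact_mod_cast Nat.factorial_pos (l i))
  rw [eq_div_iff hpos.ne']
  have h2 : (((univ.filter (fun s : K → ι =>
        ∀ i, (univ.filter (fun x => s x = i)).card = l i)).card * ∏ i, (l i)! : ℕ) : ℝ)
      = (((Fintype.card K)! : ℕ) : ℝ) := by rw [h1]
  push_cast at h2
  exact h2

end Count

/-! ### The weights `p_i(l) = 1/(l! (l - δ_i)!)` -/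

/-- `pw δ i l = 1 / (l! (l - δ i)!)` for `l ≥ δ i`, and `0` otherwise. -/
noncomputable def pw (δ : Fin 3 → ℤ) (i : Fin 3) (l : ℕ) : ℝ :=
  if δ i ≤ (l : ℤ) then 1 / ((l ! : ℝ) * ((((l : ℤ) - δ i).toNat) ! : ℝ)) else 0

theorem pw_of_le (δ : Fin 3 → ℤ) (i : Fin 3) (l : ℕ) (h : δ i ≤ (l : ℤ)) :
    pw δ i l = 1 / ((l ! : ℝ) * ((((l : ℤ) - δ i).toNat) ! : ℝ)) := if_pos h

theorem pw_of_not_le (δ : Fin 3 → ℤ) (i : Fin 3) (l : ℕ) (h : ¬ δ i ≤ (l : ℤ)) :
    pw δ i l = 0 := if_neg h

theorem pw_nonneg (δ : Fin 3 → ℤ) (i : Fin 3) (l : ℕ) : 0 ≤ pw δ i l := by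
  unfold pw
  split_ifs
  · positivity
  · exact le_refl 0

theorem pw_pos_iff (δ : Fin 3 → ℤ) (i : Fin 3) (l : ℕ) : 0 < pw δ i l ↔ δ i ≤ (l : ℤ) := by
  constructor
  · intro h
    by_contra hn
    rw [pw_of_not_le δ i l hn] at h
    exact lt_irrefl 0 h
  · intro h
    rw [pw_of_le δ i l h]
    positivity

/-- Interval support, in the shape of the hypothesis `hint` of the one-dimensional lemma. -/
theorem pw_interval (δ : Fin 3 → ℤ) (i : Fin 3) (a b c : ℕ) (hab : a ≤ b) (_hbc : b ≤ c)
    (ha : 0 < pw δ i a) (_hc : 0 < pw δ i c) : 0 < pw δ i b := by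
  rw [pw_pos_iff] at ha ⊢
  have : (a : ℤ) ≤ (b : ℤ) := by exact_mod_cast hab
  linarith

/-- Log-concavity, in the shape of the hypothesis `hlc` of the one-dimensional lemma. -/
theorem pw_logconcave (δ : Fin 3 → ℤ) (i : Fin 3) (k : ℕ) :
    pw δ i k * pw δ i (k + 2) ≤ pw δ i (k + 1) ^ 2 := by
  by_cases h : δ i ≤ (k : ℤ)
  · have h1 : δ i ≤ ((k + 1 : ℕ) : ℤ) := by push_cast; linarith
    have h2 : δ i ≤ ((k + 2 : ℕ) : ℤ) := by push_cast; linarith
    obtain ⟨a, ha⟩ : ∃ a : ℕ, (k : ℤ) - δ i = (a : ℤ) := ⟨((k : ℤ) - δ i).toNat, by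
      rw [Int.toNat_of_nonneg]; linarith⟩
    have e0 : ((k : ℤ) - δ i).toNat = a := by rw [ha]; exact Int.toNat_natCast _
    have e1 : (((k + 1 : ℕ) : ℤ) - δ i).toNat = a + 1 := by
      have : ((k + 1 : ℕ) : ℤ) - δ i = ((a + 1 : ℕ) : ℤ) := by push_cast; linarith
      rw [this]; exact Int.toNat_natCast _
    have e2 : (((k + 2 : ℕ) : ℤ) - δ i).toNat = a + 2 := by
      have : ((k + 2 : ℕ) : ℤ) - δ i = ((a + 2 : ℕ) : ℤ) := by push_cast; linarith
      rw [this]; exact Int.toNat_natCast _
    rw [pw_of_le δ i k h, pw_of_le δ i (k + 1) h1, pw_of_le δ i (k + 2) h2, e0, e1, e2]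
    have hx : (0 : ℝ) < (k ! : ℝ) := by exact_mod_cast Nat.factorial_pos k
    have hy : (0 : ℝ) < (a ! : ℝ) := by exact_mod_cast Nat.factorial_pos a
    have fk1 : (((k + 1)! : ℕ) : ℝ) = ((k : ℝ) + 1) * (k ! : ℝ) := by
      rw [Nat.factorial_succ]; push_cast; ring
    have fk2 : (((k + 2)! : ℕ) : ℝ) = ((k : ℝ) + 2) * (((k : ℝ) + 1) * (k ! : ℝ)) := by
      rw [Nat.factorial_succ, Nat.factorial_succ]; push_cast; ring
    have fa1 : (((a + 1)! : ℕ) : ℝ) = ((a : ℝ) + 1) * (a ! : ℝ) := by
      rw [Nat.factorial_succ]; push_cast; ring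
    have fa2 : (((a + 2)! : ℕ) : ℝ) = ((a : ℝ) + 2) * (((a : ℝ) + 1) * (a ! : ℝ)) := by
      rw [Nat.factorial_succ, Nat.factorial_succ]; push_cast; ring
    rw [fk1, fk2, fa1, fa2]
    set x : ℝ := (k ! : ℝ)
    set y : ℝ := (a ! : ℝ)
    have hk : (0 : ℝ) ≤ (k : ℝ) := Nat.cast_nonneg k
    have hann : (0 : ℝ) ≤ (a : ℝ) := Nat.cast_nonneg a
    rw [one_div_mul_one_div, one_div_pow]
    apply one_div_le_one_div_of_le
    · positivity
    · have key : x * y * (((k : ℝ) + 2) * (((k : ℝ) + 1) * x) * (((a : ℝ) + 2) * (((a : ℝ) + 1) * y)))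
          - (((k : ℝ) + 1) * x * (((a : ℝ) + 1) * y)) ^ 2
          = x ^ 2 * y ^ 2 * ((k : ℝ) + 1) * ((a : ℝ) + 1) * ((k : ℝ) + (a : ℝ) + 3) := by ring
      have hnn : 0 ≤ x ^ 2 * y ^ 2 * ((k : ℝ) + 1) * ((a : ℝ) + 1) * ((k : ℝ) + (a : ℝ) + 3) := by
        positivity
      linarith
  · rw [pw_of_not_le δ i k h, zero_mul]
    exact sq_nonneg _

/-! ### The colouring model: law of the levels -/

section States

variable {K1 K2 : Type*} [Fintype K1] [DecidableEq K1] [Fintype K2] [DecidableEq K2]

omit [DecidableEq K1] [DecidableEq K2] in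
/-- A state forces `∑ δ = card K1 - card K2` (so the state set is empty otherwise). -/
theorem sum_delta_of_state (δ : Fin 3 → ℤ) (s : (K1 → Fin 3) × (K2 → Fin 3))
    (hs : ∀ i, ((univ.filter (fun x => s.1 x = i)).card : ℤ)
        - ((univ.filter (fun x => s.2 x = i)).card : ℤ) = δ i) :
    ∑ i, δ i = (Fintype.card K1 : ℤ) - (Fintype.card K2 : ℤ) := by
  rw [← sum_card_fibres s.1, ← sum_card_fibres s.2]
  push_cast
  rw [← Finset.sum_sub_distrib]
  exact Finset.sum_congr rfl (fun i _ => (hs i).symm)

/-- The state set is empty unless `∑ δ = card K1 - card K2`. -/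
theorem states_eq_empty (δ : Fin 3 → ℤ)
    (hδ : ∑ i, δ i ≠ (Fintype.card K1 : ℤ) - (Fintype.card K2 : ℤ)) :
    univ.filter (fun s : (K1 → Fin 3) × (K2 → Fin 3) =>
        ∀ i, ((univ.filter (fun x => s.1 x = i)).card : ℤ)
          - ((univ.filter (fun x => s.2 x = i)).card : ℤ) = δ i) = ∅ := by
  apply Finset.filter_false_of_mem
  intro s _ hs
  exact hδ (sum_delta_of_state δ s hs)

/-- **Level count (3.4).**  The number of states with level vector `l` is
`(card K1)! (card K2)! ∏ i, 1/(l_i! (l_i - δ_i)!)`. -/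
theorem card_states_level (δ : Fin 3 → ℤ)
    (hδ : ∑ i, δ i = (Fintype.card K1 : ℤ) - (Fintype.card K2 : ℤ))
    (l : Fin 3 → ℕ) (hl : ∑ i, l i = Fintype.card K1) :
    (((univ.filter (fun s : (K1 → Fin 3) × (K2 → Fin 3) =>
        ∀ i, ((univ.filter (fun x => s.1 x = i)).card : ℤ)
          - ((univ.filter (fun x => s.2 x = i)).card : ℤ) = δ i)).filter
        (fun s => (fun i => (univ.filter (fun x => s.1 x = i)).card) = l)).card : ℝ)
      = ((Fintype.card K1)! : ℝ) * ((Fintype.card K2)! : ℝ) * ∏ i, pw δ i (l i) := by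
  have hprod : ((univ.filter (fun s : (K1 → Fin 3) × (K2 → Fin 3) =>
        ∀ i, ((univ.filter (fun x => s.1 x = i)).card : ℤ)
          - ((univ.filter (fun x => s.2 x = i)).card : ℤ) = δ i)).filter
        (fun s => (fun i => (univ.filter (fun x => s.1 x = i)).card) = l))
      = (univ.filter (fun s1 : K1 → Fin 3 => ∀ i, (univ.filter (fun x => s1 x = i)).card = l i))
        ×ˢ (univ.filter (fun s2 : K2 → Fin 3 =>
            ∀ i, (l i : ℤ) - ((univ.filter (fun x => s2 x = i)).card : ℤ) = δ i)) := by
    ext ⟨s1, s2⟩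
    simp only [mem_filter, mem_univ, true_and, mem_product]
    constructor
    · rintro ⟨h1, h2⟩
      have h2' : ∀ i, (univ.filter (fun x => s1 x = i)).card = l i := fun i => congrFun h2 i
      refine ⟨h2', fun i => ?_⟩
      rw [← h2' i]
      exact h1 i
    · rintro ⟨h1, h2⟩
      refine ⟨fun i => ?_, funext h1⟩
      rw [h1 i]
      exact h2 i
  rw [hprod, Finset.card_product]
  push_cast
  have hA : ((univ.filter (fun s1 : K1 → Fin 3 =>
        ∀ i, (univ.filter (fun x => s1 x = i)).card = l i)).card : ℝ)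
      = ((Fintype.card K1)! : ℝ) / ∏ i, ((l i)! : ℝ) := by
    have h := card_fibres_real (K := K1) l hl
    convert h
  rw [hA]
  by_cases hall : ∀ i, δ i ≤ (l i : ℤ)
  · set l' : Fin 3 → ℕ := fun i => ((l i : ℤ) - δ i).toNat with hl'
    have hl'i : ∀ i, ((l' i : ℕ) : ℤ) = (l i : ℤ) - δ i := fun i =>
      Int.toNat_of_nonneg (by linarith [hall i])
    have hB : (univ.filter (fun s2 : K2 → Fin 3 =>
            ∀ i, (l i : ℤ) - ((univ.filter (fun x => s2 x = i)).card : ℤ) = δ i))
        = (univ.filter (fun s2 : K2 → Fin 3 =>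
            ∀ i, (univ.filter (fun x => s2 x = i)).card = l' i)) := by
      apply Finset.filter_congr
      intro s2 _
      constructor
      · intro h i
        have h1 := h i
        have h2 := hl'i i
        omega
      · intro h i
        rw [h i, hl'i i]
        ring
    have hsum' : ∑ i, l' i = Fintype.card K2 := by
      have hcast : ((∑ i, l' i : ℕ) : ℤ) = (Fintype.card K2 : ℤ) := by
        push_cast
        rw [Finset.sum_congr rfl (fun i _ => hl'i i), Finset.sum_sub_distrib, hδ]
        have : (∑ i, (l i : ℤ)) = (Fintype.card K1 : ℤ) := by exact_mod_cast hl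
        rw [this]
        ring
      exact_mod_cast hcast
    have hB' : ((univ.filter (fun s2 : K2 → Fin 3 =>
          ∀ i, (univ.filter (fun x => s2 x = i)).card = l' i)).card : ℝ)
        = ((Fintype.card K2)! : ℝ) / ∏ i, ((l' i)! : ℝ) := by
      have h := card_fibres_real (K := K2) l' hsum'
      convert h
    rw [hB, hB']
    have hpw : ∏ i, pw δ i (l i) = 1 / ((∏ i, ((l i)! : ℝ)) * ∏ i, ((l' i)! : ℝ)) := by
      rw [← Finset.prod_mul_distrib, one_div, ← Finset.prod_inv_distrib]
      refine Finset.prod_congr rfl (fun i _ => ?_)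
      rw [pw_of_le δ i (l i) (hall i), one_div]
    rw [hpw]
    have hp1 : (0 : ℝ) < ∏ i, ((l i)! : ℝ) :=
      Finset.prod_pos (fun i _ => by exact_mod_cast Nat.factorial_pos (l i))
    have hp2 : (0 : ℝ) < ∏ i, ((l' i)! : ℝ) :=
      Finset.prod_pos (fun i _ => by exact_mod_cast Nat.factorial_pos (l' i))
    field_simp
  · rw [not_forall] at hall
    obtain ⟨i, hi⟩ := hall
    have hB : (univ.filter (fun s2 : K2 → Fin 3 =>
            ∀ i, (l i : ℤ) - ((univ.filter (fun x => s2 x = i)).card : ℤ) = δ i)) = ∅ := by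
      apply Finset.filter_false_of_mem
      intro s2 _ h
      have := h i
      omega
    have hpw : ∏ i, pw δ i (l i) = 0 :=
      Finset.prod_eq_zero (mem_univ i) (pw_of_not_le δ i (l i) hi)
    rw [hB, hpw]
    simp

/-- **Law of the levels (3.4).**  A sum over the states of the colouring model of a function of
the level vector `l_i = #{type-1 items coloured i}` is `(card K1)! (card K2)!` times the sum over
`Finset.Nat.antidiagonalTuple 3 (card K1)` with the product weights `∏ i, pw δ i (l i)`. -/
theorem sum_states_levels (δ : Fin 3 → ℤ)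
    (hδ : ∑ i, δ i = (Fintype.card K1 : ℤ) - (Fintype.card K2 : ℤ)) (F : (Fin 3 → ℕ) → ℝ) :
    ∑ s ∈ univ.filter (fun s : (K1 → Fin 3) × (K2 → Fin 3) =>
        ∀ i, ((univ.filter (fun x => s.1 x = i)).card : ℤ)
          - ((univ.filter (fun x => s.2 x = i)).card : ℤ) = δ i),
        F (fun i => (univ.filter (fun x => s.1 x = i)).card)
      = ((Fintype.card K1)! : ℝ) * ((Fintype.card K2)! : ℝ) *
          ∑ l ∈ Finset.Nat.antidiagonalTuple 3 (Fintype.card K1), (∏ i, pw δ i (l i)) * F l := by
  rw [← Finset.sum_fiberwise_of_maps_to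
    (g := fun s : (K1 → Fin 3) × (K2 → Fin 3) => (fun i => (univ.filter (fun x => s.1 x = i)).card))
    (t := Finset.Nat.antidiagonalTuple 3 (Fintype.card K1))]
  · rw [Finset.mul_sum]
    refine Finset.sum_congr rfl (fun l hl => ?_)
    have hl' : ∑ i, l i = Fintype.card K1 := Finset.Nat.mem_antidiagonalTuple.mp hl
    rw [Finset.sum_congr rfl (fun s hs => by rw [(Finset.mem_filter.mp hs).2])]
    rw [Finset.sum_const, nsmul_eq_mul, card_states_level δ hδ l hl']
    ring
  · intro s _
    rw [Finset.Nat.mem_antidiagonalTuple]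
    exact sum_card_fibres s.1

end States

end Crest.Agent.Helper82.S0453
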